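import Vale.Agent.P331.F.Rows

/-!
# Line B: elementary facts about the constants and about `Th`
-/

set_option autoImplicit false
set_option linter.unusedSectionVars false

namespace Vale.Agent.P331.H595

open Finset Vale.Agent.P331.H489 Vale.Agent.P331.H250 Vale.Agent.P331.F
open scoped Classical

noncomputable section

/-! ## `ind` and `Th` -/

theorem ind_of {P : Prop} (h : P) : F.ind P = 1 := if_pos h

theorem ind_not {P : Prop} (h : ¬ P) : F.ind P = 0 := if_neg h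

theorem ind_nonneg (P : Prop) : 0 ≤ F.ind P := by unfold F.ind; split_ifs <;> norm_num

theorem ind_le_one (P : Prop) : F.ind P ≤ 1 := by unfold F.ind; split_ifs <;> norm_num

theorem ind_mono {P Q : Prop} (h : P → Q) : F.ind P ≤ F.ind Q := by
  by_cases hP : P
  · rw [ind_of hP, ind_of (h hP)]
  · rw [ind_not hP]; exact ind_nonneg _

theorem ind_le_add {P Q R : Prop} (h : P → Q ∨ R) : F.ind P ≤ F.ind Q + F.ind R := by
  by_cases hP : P
  · rw [ind_of hP]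
    rcases h hP with h | h
    · rw [ind_of h]; linarith [ind_nonneg R]
    · rw [ind_of h]; linarith [ind_nonneg Q]
  · rw [ind_not hP]; linarith [ind_nonneg Q, ind_nonneg R]

variable {E : Type} [Fintype E]

theorem Th_mono {t : ℝ} (h0 : 0 ≤ t) (h1 : t ≤ 1) {S : Finset E} {f g : Finset E → ℝ}
    (h : ∀ G, G ⊆ S → f G ≤ g G) : Th t S f ≤ Th t S g :=
  TH_mono (fun _ => h0) (fun _ => h1) S h

theorem Th_nonneg {t : ℝ} (h0 : 0 ≤ t) (h1 : t ≤ 1) {S : Finset E} {f : Finset E → ℝ}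
    (h : ∀ G, G ⊆ S → 0 ≤ f G) : 0 ≤ Th t S f :=
  TH_nonneg (fun _ => h0) (fun _ => h1) S h

theorem Th_add (t : ℝ) (S : Finset E) (f g : Finset E → ℝ) :
    Th t S (fun G => f G + g G) = Th t S f + Th t S g := TH_add _ _ _ _

theorem Th_mul (t : ℝ) (S : Finset E) (c : ℝ) (f : Finset E → ℝ) :
    Th t S (fun G => c * f G) = c * Th t S f := TH_mul _ _ _ _

theorem Th_sum {ι : Type*} (s : Finset ι) (t : ℝ) (S : Finset E) (f : ι → Finset E → ℝ) :
    Th t S (fun G => ∑ i ∈ s, f i G) = ∑ i ∈ s, Th t S (f i) := TH_sum _ _ _ _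

theorem Th_const (t : ℝ) (S : Finset E) (c : ℝ) : Th t S (fun _ => c) = c := TH_const _ _ _

theorem Th_le_one {t : ℝ} (h0 : 0 ≤ t) (h1 : t ≤ 1) {S : Finset E} (P : Finset E → Prop) :
    Th t S (fun G => F.ind (P G)) ≤ 1 :=
  (Th_mono h0 h1 fun _ _ => ind_le_one _).trans (le_of_eq (Th_const t S 1))

/-- Markov -/
theorem Th_markov {t : ℝ} (h0 : 0 ≤ t) (h1 : t ≤ 1) {S : Finset E} {f : Finset E → ℝ}
    (hf : ∀ G, G ⊆ S → 0 ≤ f G) {c : ℝ} {P : Finset E → Prop}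
    (hP : ∀ G, G ⊆ S → P G → c ≤ f G) : c * Th t S (fun G => F.ind (P G)) ≤ Th t S f := by
  rw [← Th_mul]
  refine Th_mono h0 h1 fun G hG => ?_
  by_cases h : P G
  · rw [ind_of h, mul_one]; exact hP G hG h
  · rw [ind_not h, mul_zero]; exact hf G hG

theorem Th_nn {t : ℝ} (h0 : 0 ≤ t) (h1 : t ≤ 1) {S : Finset E} (P : Finset E → Prop) :
    0 ≤ Th t S (fun G => F.ind (P G)) := Th_nonneg h0 h1 fun _ _ => ind_nonneg _

/-! ## constants -/

/-- `x = xx B (j - 1)` -/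
theorem xx_succ {B j : ℕ} (hj : 1 ≤ j) : (xx B j : ℝ) = (xx B (j - 1) : ℝ) ^ 200 := by
  obtain ⟨i, rfl⟩ : ∃ i, j = i + 1 := ⟨j - 1, by omega⟩
  simp only [Nat.add_sub_cancel, xx, Nat.cast_pow]
  rw [← pow_mul, pow_succ]

theorem le_xx {B : ℕ} (hB : 1 ≤ B) (j : ℕ) : (B : ℝ) ≤ xx B j := by
  have h1 : (1 : ℝ) ≤ B := by exact_mod_cast hB
  simp only [xx, Nat.cast_pow]
  exact le_self_pow₀ h1 (by positivity)

variable {p g n lam : ℝ} {B : ℕ}

theorem B16 (c : Cst p g n lam B) : (16 : ℝ) ≤ B := by exact_mod_cast c.B16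

theorem x16 (c : Cst p g n lam B) (j : ℕ) : (16 : ℝ) ≤ xx B j :=
  (B16 c).trans (le_xx (by have := c.B16; omega) j)

theorem g_le (c : Cst p g n lam B) : g ≤ 1 / 32 := by
  have := c.gn; have := c.n1; linarith

theorem rate (c : Cst p g n lam B) : 0 ≤ n / (1 - g) ∧ n / (1 - g) ≤ 1 := by
  have h1 := g_le c
  have h2 := c.g0
  have h3 := c.n0
  have h4 := c.n1
  constructor
  · exact div_nonneg h3.le (by linarith)
  · rw [div_le_one (by linarith)]; linarith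

/-- the rate `q` -/
theorem q_bounds (c : Cst p g n lam B) : 3 / 4 * n ≤ (1 - p) * (g + n) ∧
    (1 - p) * (g + n) ≤ 5 / 32 ∧ 0 < (1 - p) * (g + n) := by
  have h1 := c.p0
  have h2 := c.p1
  have h3 := c.g0
  have h4 := c.gn
  have h5 := c.n0
  have h6 := c.n1
  refine ⟨?_, ?_, ?_⟩
  · nlinarith
  · nlinarith
  · nlinarith

theorem q_bessel (c : Cst p g n lam B) :
    1 / (4 * ((1 - p) * (g + n) * (1 - (1 - p) * (g + n)))) ≤ B := by
  obtain ⟨h1, h2, h3⟩ := q_bounds c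
  have h5 := c.n0
  set q := (1 - p) * (g + n) with hq
  have h6 : n ≤ 4 * (q * (1 - q)) := by nlinarith
  have h7 : 1 / (4 * (q * (1 - q))) ≤ 1 / n := one_div_le_one_div_of_le h5 h6
  have h8 : 1 / n ≤ 4 / n := by
    apply div_le_div_of_nonneg_right _ h5.le
    norm_num
  exact h7.trans (h8.trans c.nB)

theorem kap_le (c : Cst p g n lam B) (j : ℕ) :
    (3 : ℝ) * 200 ^ j ≤ (xx B j : ℝ) ^ 2 := by
  have hB := B16 c
  simp only [xx, Nat.cast_pow]
  rw [← pow_mul, mul_comm (200 ^ j), pow_mul]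
  have h1 : (256 : ℝ) ≤ (B : ℝ) ^ 2 := by nlinarith
  have h2 : (256 : ℝ) ^ (200 ^ j) ≤ ((B : ℝ) ^ 2) ^ (200 ^ j) :=
    pow_le_pow_left₀ (by norm_num) h1 _
  refine le_trans ?_ h2
  have h3 : ((200 ^ j : ℕ) : ℝ) ≤ (2 : ℝ) ^ (200 ^ j) := by
    exact_mod_cast (Nat.lt_two_pow_self (n := 200 ^ j)).le
  have h4 : (1 : ℕ) ≤ 200 ^ j := Nat.one_le_pow _ _ (by norm_num)
  have h5 : (3 : ℝ) ≤ (128 : ℝ) ^ (200 ^ j) :=
    le_trans (by norm_num) (le_self_pow₀ (by norm_num) (by omega))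
  have h6 : (256 : ℝ) ^ (200 ^ j) = (128 : ℝ) ^ (200 ^ j) * (2 : ℝ) ^ (200 ^ j) := by
    rw [← mul_pow]; norm_num
  rw [h6]
  have h7 : (200 : ℝ) ^ j = ((200 ^ j : ℕ) : ℝ) := by push_cast; rfl
  rw [h7]
  exact mul_le_mul h5 h3 (by positivity) (by positivity)

end

end Vale.Agent.P331.H595
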