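import Vale.Agent.P331.H595.Basic

/-!
# Line B: Lemma L from the rows below it
-/

set_option autoImplicit false
set_option linter.unusedSectionVars false

namespace Vale.Agent.P331.H595

open Finset Vale.Agent.P331.H489 Vale.Agent.P331.H250 Vale.Agent.P331.F
open scoped Classical

noncomputable section

theorem card_bound {x : ℝ} {k m : ℕ} (hm : (3 : ℝ) * m ≤ x ^ 2) (hx : 0 < x) (hk : k + 1 ≤ m) :
    3 * (x ^ 22)⁻¹ ≤ (x ^ 20)⁻¹ / ((k : ℝ) + 1) := by
  have h1 : ((k : ℝ) + 1) ≤ m := by exact_mod_cast hk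
  have h0 : (0 : ℝ) < (k : ℝ) + 1 := by positivity
  rw [le_div_iff₀ h0]
  have h2 : 3 * ((k : ℝ) + 1) ≤ x ^ 2 := by linarith
  have h3 : (x ^ 20)⁻¹ = (x ^ 22)⁻¹ * x ^ 2 := by
    field_simp
  rw [h3]
  have h4 : 0 ≤ (x ^ 22)⁻¹ := by positivity
  nlinarith

/-- **first part of Lemma L** -/
theorem rowL1_of (hTr : RowTr) (hJ : RowJ) (hC : RowC) : RowL1 := by
  intro p g n lam B c E _ D hD j hj
  have hp0 := c.p0
  have hp1 := c.p1
  have hg0 := c.g0
  have hg1 := g_le c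
  have hn0 := c.n0
  have hn1 := c.n1
  obtain ⟨hr0, hr1⟩ := rate c
  set x : ℝ := (xx B (j - 1) : ℝ) with hx
  have hy : (xx B j : ℝ) = x ^ 200 := xx_succ hj
  have hx16 : (16 : ℝ) ≤ x := x16 c (j - 1)
  have hx0 : 0 < x := by linarith
  set κ : ℕ := 200 ^ (j - 1) - 1 with hκ
  have hκ1 : κ + 1 = 200 ^ (j - 1) := by
    have : 1 ≤ 200 ^ (j - 1) := Nat.one_le_pow _ _ (by norm_num)
    omega
  set κj : ℕ := 200 ^ j - 1 with hκj
  set a : ℝ := (x ^ 22)⁻¹ with ha
  have ha0 : 0 < a := by positivity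
  set t : ℝ := n / (1 - g) with ht
  -- the event of J*
  set Fm : Finset E → Finset E → Prop := fun R A =>
    Fam (g / (1 - g)) (n / (1 - 2 * g)) a κj (x ^ 200 * ((x ^ 200) ^ 20)⁻¹) D R A with hFm
  set Hp : Finset E → Finset E → Prop := fun R A =>
    Th t R (fun N => F.ind (¬ D (A ∪ N))) ≤ 3 * a with hHp
  set Ev : Finset E → Finset E → Prop := fun V G => ∃ K ⊆ V, Fm ((univ \ V) \ G) K ∧
      ∀ U' ⊆ K, U'.card ≤ κ → ¬ Hp ((univ \ V) \ G) (U' ∪ G) with hEv
  -- the bound of the event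
  have hpg : p ≤ (1 - p) * g := by
    have h1 := c.lam0
    rw [le_div_iff₀ hp0] at h1
    have h2 : (1 : ℝ) ≤ (B : ℝ) ^ 24000 := one_le_pow₀ (by have := B16 c; linarith)
    nlinarith
  have hgg0 : 0 < (1 - p) * g := lt_of_lt_of_le hp0 hpg
  have hG1 : 0 ≤ g / (1 - g) ∧ g / (1 - g) ≤ 1 := by
    constructor
    · exact div_nonneg hg0.le (by linarith)
    · rw [div_le_one (by linarith)]; linarith
  have hFmono : ∀ R A A' : Finset E, A ⊆ A' → Fm R A → Fm R A' := by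
    intro R A A' hA h
    refine le_trans (Th_mono hG1.1 hG1.2 fun G _ => ind_mono ?_) h
    intro h1 h2
    obtain ⟨Y, hY, h3⟩ := h2
    exact h1 ⟨Y, hY.trans hA, h3⟩
  have e1 := hJ E Fm Hp hFmono p g κ hp0 (by linarith) hg0 (by linarith) hpg
  have e2 := hC p g n lam hp0 hp1 hg0 c.gn hn1 c.lam1 c.qj E D hD κj
    (x ^ 200 * ((x ^ 200) ^ 20)⁻¹) a (by positivity) ha0
  have hBk : (B : ℝ) ^ (200 ^ (j - 1)) = x := by
    rw [hx]; simp only [xx, Nat.cast_pow]
  -- first number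
  have n1 : (p / ((1 - p) * g)) ^ (κ + 1) ≤ (x ^ 24000)⁻¹ := by
    have h1 : p / ((1 - p) * g) ≤ ((B : ℝ) ^ 24000)⁻¹ := by
      have h2 := c.lam0
      have hB0 : (0 : ℝ) < (B : ℝ) ^ 24000 := by have := B16 c; positivity
      rw [← one_div, div_le_div_iff₀ hgg0 hB0]
      rw [le_div_iff₀ hp0] at h2
      linarith
    have h3 : (p / ((1 - p) * g)) ^ (κ + 1) ≤ (((B : ℝ) ^ 24000)⁻¹) ^ (κ + 1) :=
      pow_le_pow_left₀ (by positivity) h1 _
    refine h3.trans (le_of_eq ?_)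
    rw [hκ1, inv_pow, ← pow_mul, mul_comm, pow_mul, hBk]
  -- second number
  have n2 : (lam ^ κj * (x ^ 200 * ((x ^ 200) ^ 20)⁻¹)) ^ 7 / a ^ 17 ≤ (x ^ 24000)⁻¹ := by
    have h1 : lam ^ κj ≤ x ^ 200 := by
      have h2 : lam ^ κj ≤ (B : ℝ) ^ κj := pow_le_pow_left₀ (by linarith [c.lam1]) c.lamB _
      refine h2.trans ?_
      rw [← hy]
      simp only [xx, Nat.cast_pow]
      exact pow_le_pow_right₀ (by have := B16 c; linarith) (Nat.sub_le _ _)
    have h0 : (0 : ℝ) ≤ lam ^ κj := pow_nonneg (by linarith [c.lam1]) _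
    have h3 : lam ^ κj * (x ^ 200 * ((x ^ 200) ^ 20)⁻¹) ≤ (x ^ 3600)⁻¹ := by
      have h4 : lam ^ κj * (x ^ 200 * ((x ^ 200) ^ 20)⁻¹) ≤
          x ^ 200 * (x ^ 200 * ((x ^ 200) ^ 20)⁻¹) :=
        mul_le_mul_of_nonneg_right h1 (by positivity)
      refine h4.trans (le_of_eq ?_)
      rw [← pow_mul]
      field_simp
    have h5 : (lam ^ κj * (x ^ 200 * ((x ^ 200) ^ 20)⁻¹)) ^ 7 ≤ ((x ^ 3600)⁻¹) ^ 7 :=
      pow_le_pow_left₀ (mul_nonneg h0 (by positivity)) h3 _
    have h6 : (lam ^ κj * (x ^ 200 * ((x ^ 200) ^ 20)⁻¹)) ^ 7 / a ^ 17 ≤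
        ((x ^ 3600)⁻¹) ^ 7 / a ^ 17 := div_le_div_of_nonneg_right h5 (by positivity)
    refine h6.trans ?_
    have h7 : ((x ^ 3600)⁻¹) ^ 7 / a ^ 17 = (x ^ 24826)⁻¹ := by
      rw [ha, inv_pow, inv_pow, ← pow_mul, ← pow_mul]
      field_simp
      ring
    rw [h7]
    apply inv_anti₀ (by positivity)
    exact pow_le_pow_right₀ (by linarith) (by norm_num)
  have hEvB : Th p univ (fun V => Th g (univ \ V) (fun G => F.ind (Ev V G))) ≤
      2 * (x ^ 24000)⁻¹ := by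
    refine e1.trans ?_
    have h1 : Th ((1 - p) * g) univ (fun X => Th ((1 - p) * (1 - g) / (1 - (1 - p) * g))
        (univ \ X) (fun R => F.ind (Fm R X ∧ ¬ Hp R X))) ≤ (x ^ 24000)⁻¹ := e2.trans n2
    linarith
  -- the pointwise step
  have key : ∀ V : Finset E, (∃ X ⊆ V,
      ff g t (lev B j) D (univ \ V) X ≤ (lev B j).τ ∧
      (x ^ 163)⁻¹ ≤ Th g (univ \ V) (fun G =>
        F.ind (¬ ∃ Y ⊆ X, good t (lev B (j - 1)) D (univ \ V) G Y))) →
      (x ^ 163)⁻¹ / 2 ≤ Th g (univ \ V) (fun G => F.ind (Ev V G)) := by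
    rintro V ⟨X, hXV, h1, h2⟩
    have h3 : Th g (univ \ V) (fun G => F.ind (¬ ∃ Y ⊆ X, Y.card ≤ κj ∧
        Th (n / (1 - g)) ((univ \ V) \ G) (fun N => F.ind (¬ D (Y ∪ G ∪ N))) ≤
          ((x ^ 200) ^ 20)⁻¹)) ≤ (x ^ 200)⁻¹ := by
      have h4 : (lev B j).τ = (x ^ 200)⁻¹ := by simp only [lev]; rw [hy]
      rw [← h4]
      refine le_trans (Th_mono hg0.le (by linarith) fun G _ => ind_mono ?_) h1
      rintro h5 ⟨Y, hY, h6, h7⟩
      refine h5 ⟨Y, hY, h6, h7.trans ?_⟩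
      have h8 : (lev B j).δ = ((x ^ 200) ^ 20)⁻¹ := by simp only [lev]; rw [hy]
      rw [h8]
      exact div_le_self (by positivity) (by have : (0:ℝ) ≤ (Y.card : ℝ) := Nat.cast_nonneg _; linarith)
    have h4 := hTr E D (univ \ V) X g n κj ((x ^ 200) ^ 20)⁻¹ (x ^ 200)⁻¹ a (x ^ 200) hg0
      (by linarith) hn0.le (by linarith) (by positivity) ha0 (by positivity) h3
    have h5 : ((x ^ 200)⁻¹ + 1 / x ^ 200) / a ≤ (x ^ 163)⁻¹ / 2 := by
      have h6 : ((x ^ 200)⁻¹ + 1 / x ^ 200) / a = 2 * (x ^ 178)⁻¹ := by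
        rw [ha]
        field_simp
        ring
      rw [h6]
      have h7 : (x ^ 163)⁻¹ = (x ^ 178)⁻¹ * x ^ 15 := by field_simp
      rw [h7]
      have h8 : (4 : ℝ) ≤ x ^ 15 := le_trans (by linarith) (le_self_pow₀ (by linarith) (by norm_num))
      have h9 : 0 < (x ^ 178)⁻¹ := by positivity
      nlinarith
    have h6 : Th g (univ \ V) (fun G =>
        F.ind (¬ ∃ Y ⊆ X, good t (lev B (j - 1)) D (univ \ V) G Y)) ≤
        Th g (univ \ V) (fun G => F.ind (Ev V G)) +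
        Th g (univ \ V) (fun G => F.ind (¬ Fam (g / (1 - g)) (n / (1 - 2 * g)) a κj
          (x ^ 200 * ((x ^ 200) ^ 20)⁻¹) D ((univ \ V) \ G) X)) := by
      rw [← Th_add]
      refine Th_mono hg0.le (by linarith) fun G _ => ind_le_add ?_
      intro hno
      by_cases hF : Fam (g / (1 - g)) (n / (1 - 2 * g)) a κj
          (x ^ 200 * ((x ^ 200) ^ 20)⁻¹) D ((univ \ V) \ G) X
      · left
        refine ⟨X, hXV, hF, fun U' hU' hc hh => hno ⟨U', hU', hc, ?_⟩⟩
        have h7 : Th t ((univ \ V) \ G) (fun N => F.ind (¬ D (U' ∪ G ∪ N))) ≤ 3 * a := hh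
        refine h7.trans ?_
        have h8 : (lev B (j - 1)).δ = (x ^ 20)⁻¹ := rfl
        rw [h8]
        refine card_bound (m := 200 ^ (j - 1)) ?_ hx0 (by omega)
        have := kap_le c (j - 1)
        push_cast
        exact this
      · exact Or.inr hF
    linarith
  -- Markov
  have hM := Th_markov (t := p) (S := (univ : Finset E)) hp0.le (by linarith)
    (f := fun V => Th g (univ \ V) (fun G => F.ind (Ev V G)))
    (fun V _ => Th_nn hg0.le (by linarith) _) (fun V _ hV => key V hV)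
  have h1 := hM.trans hEvB
  set P := Th p univ (fun V => F.ind (∃ X ⊆ V,
      ff g t (lev B j) D (univ \ V) X ≤ (lev B j).τ ∧
      (x ^ 163)⁻¹ ≤ Th g (univ \ V) (fun G =>
        F.ind (¬ ∃ Y ⊆ X, good t (lev B (j - 1)) D (univ \ V) G Y)))) with hP
  show P ≤ ((xx B j : ℝ) ^ 119)⁻¹
  rw [hy, ← pow_mul]
  have h2 : P ≤ 4 * x ^ 163 * (x ^ 24000)⁻¹ := by
    have h3 : P = (2 * x ^ 163) * ((x ^ 163)⁻¹ / 2 * P) := by field_simp
    rw [h3]
    have h4 : (2 * x ^ 163) * ((x ^ 163)⁻¹ / 2 * P) ≤ (2 * x ^ 163) * (2 * (x ^ 24000)⁻¹) :=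
      mul_le_mul_of_nonneg_left h1 (by positivity)
    linarith
  refine h2.trans ?_
  have h5 : (x ^ (200 * 119))⁻¹ = x ^ 200 * (x ^ 24000)⁻¹ := by
    field_simp
  rw [h5]
  refine mul_le_mul_of_nonneg_right ?_ (by positivity)
  have h6 : x ^ 200 = x ^ 163 * x ^ 37 := by rw [← pow_add]
  rw [h6]
  have h7 : (4 : ℝ) ≤ x ^ 37 := le_trans (by linarith) (le_self_pow₀ (by linarith) (by norm_num))
  have h8 : 0 < x ^ 163 := by positivity
  nlinarith

/-- **Lemma L** -/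
theorem rowL_of (h1 : RowL1) (hCtx : RowCtx) (hBes : RowBes) : RowL := by
  intro p g n lam B c E _ D hD j hj
  have hp0 := c.p0
  have hp1 := c.p1
  have hg0 := c.g0
  have hg1 := g_le c
  have hn0 := c.n0
  have hn1 := c.n1
  obtain ⟨hr0, hr1⟩ := rate c
  obtain ⟨hq1, hq2, hq3⟩ := q_bounds c
  set q : ℝ := (1 - p) * (g + n) with hq
  set x : ℝ := (xx B (j - 1) : ℝ) with hx
  have hy : (xx B j : ℝ) = x ^ 200 := xx_succ hj
  have hx16 : (16 : ℝ) ≤ x := x16 c (j - 1)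
  have hx0 : 0 < x := by linarith
  set t : ℝ := n / (1 - g) with ht
  have hBx : (B : ℝ) ≤ x := le_xx (by have := c.B16; omega) (j - 1)
  have hbes := hBes E D hD q hq3 (by linarith)
  have hCB : 1 / (4 * (q * (1 - q))) ≤ B := q_bessel c
  have hJ2 : ∑ b : E, JJ q D b ^ 2 ≤ x := hbes.trans (hCB.trans hBx)
  have hJ0 : ∀ f, 0 ≤ JJ q D f := fun f => Th_nn hq3.le (by linarith) _
  -- the important elements
  set Es : Finset E := univ.filter fun f => (x ^ 80)⁻¹ ≤ JJ q D f with hEs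
  have hcard : (Es.card : ℝ) ≤ x ^ 161 := by
    have h2 : (Es.card : ℝ) * ((x ^ 80)⁻¹) ^ 2 ≤ ∑ b : E, JJ q D b ^ 2 := by
      rw [← nsmul_eq_mul, ← sum_const]
      refine le_trans (sum_le_sum fun f hf => ?_)
        (sum_le_sum_of_subset_of_nonneg (filter_subset _ _) fun f _ _ => sq_nonneg _)
      exact pow_le_pow_left₀ (by positivity) (mem_filter.1 hf).2 2
    have h3 := h2.trans hJ2
    have h4 : (Es.card : ℝ) = ((Es.card : ℝ) * ((x ^ 80)⁻¹) ^ 2) * x ^ 160 := by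
      field_simp
    rw [h4]
    have h5 : ((Es.card : ℝ) * ((x ^ 80)⁻¹) ^ 2) * x ^ 160 ≤ x * x ^ 160 :=
      mul_le_mul_of_nonneg_right h3 (by positivity)
    refine h5.trans (le_of_eq ?_)
    rw [← pow_succ']
  have hZ : Es.card ≤ (lev B (j - 1)).Z := by
    have h2 : (Es.card : ℝ) ≤ ((xx B (j - 1) ^ 161 : ℕ) : ℝ) := by push_cast; exact hcard
    exact_mod_cast h2
  -- the two events
  set P1 : Finset E → Prop := fun V => ∃ X ⊆ V,
      ff g t (lev B j) D (univ \ V) X ≤ (lev B j).τ ∧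
      (x ^ 163)⁻¹ ≤ Th g (univ \ V) (fun G =>
        F.ind (¬ ∃ Y ⊆ X, good t (lev B (j - 1)) D (univ \ V) G Y)) with hP1
  set N2 : Finset E → Finset E → Prop := fun V G =>
    ∃ f ∈ univ.filter (fun f => ¬ (x ^ 80)⁻¹ ≤ JJ q D f), Need t (lev B (j - 1)) D V G f with hN2
  set P2 : Finset E → Prop := fun V =>
    (x ^ 163)⁻¹ ≤ Th g (univ \ V) (fun G => F.ind (N2 V G)) with hP2
  have key : ∀ V : Finset E, (∃ X ⊆ V, Bad g t B j D (univ \ V) X) → P1 V ∨ P2 V := by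
    rintro V ⟨X, hXV, ⟨hX1, hX2⟩, -, hX3⟩
    have hff : ff g t (lev B j) D (univ \ V) X ≤ (lev B j).τ := by
      refine hX2.trans (div_le_self ?_ ?_)
      · simp only [lev]; positivity
      · have : (0:ℝ) ≤ (X.card : ℝ) := Nat.cast_nonneg _
        linarith
    have h2 := hX3 (X ∩ Es) inter_subset_left
    have hc : (X ∩ Es).card ≤ (lev B (j - 1)).Z :=
      (card_le_card inter_subset_right).trans hZ
    have h3 : (lev B (j - 1)).τ / (((X ∩ Es).card : ℝ) + 1) <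
        ff g t (lev B (j - 1)) D (univ \ V) (X ∩ Es) := by
      by_contra h4
      exact h2 ⟨hc, not_lt.1 h4⟩
    have h4 : 2 * (x ^ 163)⁻¹ ≤ (lev B (j - 1)).τ / (((X ∩ Es).card : ℝ) + 1) := by
      have h5 : (lev B (j - 1)).τ = x⁻¹ := rfl
      have h6 : (((X ∩ Es).card : ℝ) + 1) ≤ 2 * x ^ 161 := by
        have h7 : (((X ∩ Es).card : ℝ)) ≤ x ^ 161 := by
          refine le_trans ?_ hcard
          exact_mod_cast card_le_card inter_subset_right
        have h8 : (1 : ℝ) ≤ x ^ 161 := one_le_pow₀ (by linarith)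
        linarith
      rw [h5, le_div_iff₀ (by positivity)]
      have h9 : 2 * (x ^ 163)⁻¹ * (((X ∩ Es).card : ℝ) + 1) ≤ 2 * (x ^ 163)⁻¹ * (2 * x ^ 161) :=
        mul_le_mul_of_nonneg_left h6 (by positivity)
      refine h9.trans ?_
      have h10 : 2 * (x ^ 163)⁻¹ * (2 * x ^ 161) = 4 * (x ^ 2)⁻¹ := by
        field_simp
        ring
      rw [h10]
      have h11 : x⁻¹ = x * (x ^ 2)⁻¹ := by field_simp
      rw [h11]
      exact mul_le_mul_of_nonneg_right (by linarith) (by positivity)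
    have h5 : ff g t (lev B (j - 1)) D (univ \ V) (X ∩ Es) ≤
        Th g (univ \ V) (fun G =>
          F.ind (¬ ∃ Y ⊆ X, good t (lev B (j - 1)) D (univ \ V) G Y)) +
        Th g (univ \ V) (fun G => F.ind (N2 V G)) := by
      rw [← Th_add]
      refine Th_mono hg0.le (by linarith) fun G _ => ind_le_add ?_
      intro hno
      by_cases hex : ∃ Y ⊆ X, good t (lev B (j - 1)) D (univ \ V) G Y
      · right
        obtain ⟨Y₀, hY₀, hg₀⟩ := hex
        obtain ⟨Y, hY, hgY, hmin⟩ := H352.exists_min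
          (P := fun Y => good t (lev B (j - 1)) D (univ \ V) G Y) Y₀ hg₀
        have hYX : Y ⊆ X := hY.trans hY₀
        have h6 : ¬ Y ⊆ X ∩ Es := fun h => hno ⟨Y, h, hgY⟩
        obtain ⟨f, hfY, hf⟩ := Finset.not_subset.1 h6
        refine ⟨f, ?_, hXV (hYX hfY), Y, hYX.trans hXV, hfY, hgY, hmin _ (erase_ssubset hfY)⟩
        rw [mem_filter]
        refine ⟨mem_univ _, fun h7 => hf ?_⟩
        rw [mem_inter]
        exact ⟨hYX hfY, by rw [hEs, mem_filter]; exact ⟨mem_univ _, h7⟩⟩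
      · exact Or.inl hex
    by_cases h6 : (x ^ 163)⁻¹ ≤ Th g (univ \ V) (fun G =>
        F.ind (¬ ∃ Y ⊆ X, good t (lev B (j - 1)) D (univ \ V) G Y))
    · exact Or.inl ⟨X, hXV, hff, h6⟩
    · right
      rw [not_le] at h6
      show (x ^ 163)⁻¹ ≤ _
      linarith
  -- the second event is rare
  have hP2B : Th p univ (fun V => F.ind (P2 V)) ≤ (x ^ 20000)⁻¹ := by
    have hM := Th_markov (t := p) (S := (univ : Finset E)) hp0.le (by linarith)
      (f := fun V => Th g (univ \ V) (fun G => F.ind (N2 V G)))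
      (fun V _ => Th_nn hg0.le (by linarith) _) (P := P2) (fun V _ hV => hV)
    have h2 : Th p univ (fun V => Th g (univ \ V) (fun G => F.ind (N2 V G))) ≤
        x ^ 27600 * ((x ^ 80)⁻¹) ^ 598 * x := by
      have h3 : Th p univ (fun V => Th g (univ \ V) (fun G => F.ind (N2 V G))) ≤
          ∑ f ∈ univ.filter (fun f => ¬ (x ^ 80)⁻¹ ≤ JJ q D f),
            Th p univ (fun V => Th g (univ \ V) (fun G => F.ind
              (Need t (lev B (j - 1)) D V G f))) := by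
        rw [← Th_sum]
        refine Th_mono hp0.le (by linarith) fun V _ => ?_
        rw [← Th_sum]
        refine Th_mono hg0.le (by linarith) fun G _ => ?_
        by_cases hN : N2 V G
        · obtain ⟨f, hf, hn⟩ := hN
          rw [ind_of ⟨f, hf, hn⟩, ← ind_of hn]
          exact single_le_sum (f := fun f => F.ind (Need t (lev B (j - 1)) D V G f))
            (fun f _ => ind_nonneg _) hf
        · rw [ind_not hN]
          exact sum_nonneg fun f _ => ind_nonneg _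
      refine h3.trans ?_
      have h4 : ∀ f ∈ univ.filter (fun f => ¬ (x ^ 80)⁻¹ ≤ JJ q D f),
          Th p univ (fun V => Th g (univ \ V) (fun G => F.ind
              (Need t (lev B (j - 1)) D V G f))) ≤
            x ^ 27600 * ((x ^ 80)⁻¹) ^ 598 * JJ q D f ^ 2 := by
        intro f hf
        have h5 := (mem_filter.1 hf).2
        rw [not_le] at h5
        refine (hCtx p g n lam B c E D hD (j - 1) f).trans ?_
        have h6 : (x ^ 23) ^ 1200 * JJ q D f ^ 600 =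
            x ^ 27600 * (JJ q D f ^ 598 * JJ q D f ^ 2) := by
          rw [← pow_mul, ← pow_add]
        show (x ^ 23) ^ 1200 * JJ q D f ^ 600 ≤ _
        rw [h6, mul_assoc]
        refine mul_le_mul_of_nonneg_left ?_ (by positivity)
        exact mul_le_mul_of_nonneg_right (pow_le_pow_left₀ (hJ0 f) h5.le _) (sq_nonneg _)
      refine (sum_le_sum h4).trans ?_
      rw [← mul_sum]
      refine mul_le_mul_of_nonneg_left ?_ (by positivity)
      exact (sum_le_sum_of_subset_of_nonneg (filter_subset _ _)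
        fun f _ _ => sq_nonneg _).trans hJ2
    have h3 := hM.trans h2
    set P := Th p univ (fun V => F.ind (P2 V)) with hPd
    have h4 : P = x ^ 163 * ((x ^ 163)⁻¹ * P) := by field_simp
    rw [h4]
    have h5 : x ^ 163 * ((x ^ 163)⁻¹ * P) ≤
        x ^ 163 * (x ^ 27600 * ((x ^ 80)⁻¹) ^ 598 * x) :=
      mul_le_mul_of_nonneg_left h3 (by positivity)
    refine h5.trans ?_
    have h6 : x ^ 163 * (x ^ 27600 * ((x ^ 80)⁻¹) ^ 598 * x) = (x ^ 20076)⁻¹ := by
      rw [inv_pow, ← pow_mul]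
      have e : x ^ (80 * 598) = x ^ 163 * x ^ 27600 * x * x ^ 20076 := by
        rw [← pow_add, ← pow_succ, ← pow_add]
      rw [e]
      field_simp
    rw [h6]
    exact inv_anti₀ (by positivity) (pow_le_pow_right₀ (by linarith) (by norm_num))
  -- conclusion
  have h2 : Th p univ (fun V => F.ind (∃ X ⊆ V, Bad g t B j D (univ \ V) X)) ≤
      Th p univ (fun V => F.ind (P1 V)) + Th p univ (fun V => F.ind (P2 V)) := by
    rw [← Th_add]
    exact Th_mono hp0.le (by linarith) fun V _ => ind_le_add (key V)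
  have h3 : Th p univ (fun V => F.ind (P1 V)) ≤ ((xx B j : ℝ) ^ 119)⁻¹ :=
    h1 p g n lam B c E D hD j hj
  refine h2.trans ((add_le_add h3 hP2B).trans ?_)
  rw [hy, ← pow_mul, ← pow_mul]
  have h4 : (x ^ (200 * 119))⁻¹ ≤ (x ^ 20000)⁻¹ :=
    inv_anti₀ (by positivity) (pow_le_pow_right₀ (by linarith) (by norm_num))
  have h5 : (x ^ (200 * 99))⁻¹ = x ^ 200 * (x ^ 20000)⁻¹ := by
    have e : x ^ 20000 = x ^ 200 * x ^ (200 * 99) := by rw [← pow_add]
    rw [e]
    field_simp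
  rw [h5]
  have h6 : (2 : ℝ) ≤ x ^ 200 := le_trans (by linarith) (le_self_pow₀ (by linarith) (by norm_num))
  have h7 : 0 < (x ^ 20000)⁻¹ := by positivity
  nlinarith

/-- **Lemma R** -/
theorem rowR_of (hCtx : RowCtx) : RowR := by
  intro p g n lam B c E _ D hD j b
  have hp0 := c.p0
  have hp1 := c.p1
  have hg0 := c.g0
  have hg1 := g_le c
  have hn0 := c.n0
  have hn1 := c.n1
  obtain ⟨hr0, hr1⟩ := rate c
  obtain ⟨hq1, hq2, hq3⟩ := q_bounds c
  set q : ℝ := (1 - p) * (g + n) with hq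
  set y : ℝ := (xx B j : ℝ) with hy
  have hy16 : (16 : ℝ) ≤ y := x16 c j
  have hy0 : 0 < y := by linarith
  set t : ℝ := n / (1 - g) with ht
  have hJ0 : 0 ≤ JJ q D b := Th_nn hq3.le (by linarith) _
  have key : ∀ V : Finset E, (∃ X ⊆ V, b ∈ X ∧ vio g t (lev B j) D (univ \ V) X ∧
      ∀ X' ⊂ X, ¬ vio g t (lev B j) D (univ \ V) X') →
      (y ^ 324)⁻¹ ≤ Th g (univ \ V) (fun G => F.ind (Need t (lev B j) D V G b)) := by
    rintro V ⟨X, hXV, hbX, ⟨hX1, hX2⟩, hmin⟩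
    have h1 := hmin _ (erase_ssubset hbX)
    have hc : (X.erase b).card ≤ (lev B j).Z := (card_le_card (erase_subset _ _)).trans hX1
    have h2 : (lev B j).τ / (((X.erase b).card : ℝ) + 1) <
        ff g t (lev B j) D (univ \ V) (X.erase b) := by
      by_contra h4
      exact h1 ⟨hc, not_lt.1 h4⟩
    have h3 : (((X.erase b).card : ℕ) : ℝ) + 1 = X.card := by
      rw [← Nat.cast_succ, Nat.succ_eq_add_one, card_erase_add_one hbX]
    rw [h3] at h2
    have h5 : ff g t (lev B j) D (univ \ V) (X.erase b) ≤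
        ff g t (lev B j) D (univ \ V) X +
        Th g (univ \ V) (fun G => F.ind (Need t (lev B j) D V G b)) := by
      unfold ff
      rw [← Th_add]
      refine Th_mono hg0.le (by linarith) fun G _ => ind_le_add ?_
      intro hno
      by_cases hex : ∃ Y ⊆ X, good t (lev B j) D (univ \ V) G Y
      · right
        obtain ⟨Y₀, hY₀, hg₀⟩ := hex
        obtain ⟨Y, hY, hgY, hmn⟩ := H352.exists_min
          (P := fun Y => good t (lev B j) D (univ \ V) G Y) Y₀ hg₀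
        have hYX : Y ⊆ X := hY.trans hY₀
        have hbY : b ∈ Y := by
          by_contra h6
          exact hno ⟨Y, fun e he => mem_erase.2 ⟨fun h => h6 (h ▸ he), hYX he⟩, hgY⟩
        exact ⟨hXV hbX, Y, hYX.trans hXV, hbY, hgY, hmn _ (erase_ssubset hbY)⟩
      · exact Or.inl hex
    have h6 : (lev B j).τ = y⁻¹ := rfl
    rw [h6] at h2 hX2
    have hcX : (1 : ℝ) ≤ X.card := by exact_mod_cast card_pos.2 ⟨b, hbX⟩
    have hcZ : (X.card : ℝ) ≤ y ^ 161 := by
      have : (X.card : ℝ) ≤ ((xx B j ^ 161 : ℕ) : ℝ) := by exact_mod_cast hX1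
      rw [Nat.cast_pow] at this
      exact this
    have h7 : y⁻¹ / X.card - y⁻¹ / ((X.card : ℝ) + 1) ≤
        Th g (univ \ V) (fun G => F.ind (Need t (lev B j) D V G b)) := by linarith
    refine le_trans ?_ h7
    have h8 : y⁻¹ / X.card - y⁻¹ / ((X.card : ℝ) + 1) =
        y⁻¹ / ((X.card : ℝ) * ((X.card : ℝ) + 1)) := by
      field_simp
      ring
    rw [h8, le_div_iff₀ (by positivity)]
    have h9 : (X.card : ℝ) * ((X.card : ℝ) + 1) ≤ y ^ 161 * y ^ 162 := by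
      have h10 : (X.card : ℝ) + 1 ≤ y ^ 162 := by
        have h11 : (1 : ℝ) ≤ y ^ 161 := one_le_pow₀ (by linarith)
        have h12 : y ^ 162 = y ^ 161 * y := pow_succ _ _
        rw [h12]
        nlinarith
      exact mul_le_mul hcZ h10 (by positivity) (by positivity)
    have h13 : (y ^ 324)⁻¹ * ((X.card : ℝ) * ((X.card : ℝ) + 1)) ≤
        (y ^ 324)⁻¹ * (y ^ 161 * y ^ 162) := mul_le_mul_of_nonneg_left h9 (by positivity)
    refine h13.trans (le_of_eq ?_)
    rw [← pow_add]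
    have h14 : y ^ 324 = y * y ^ 323 := by rw [← pow_succ']
    rw [h14]
    field_simp
  have hM := Th_markov (t := p) (S := (univ : Finset E)) hp0.le (by linarith)
    (f := fun V => Th g (univ \ V) (fun G => F.ind (Need t (lev B j) D V G b)))
    (fun V _ => Th_nn hg0.le (by linarith) _) (fun V _ hV => key V hV)
  have h1 := hM.trans (hCtx p g n lam B c E D hD j b)
  set P := Th p univ (fun V => F.ind (∃ X ⊆ V, b ∈ X ∧ vio g t (lev B j) D (univ \ V) X ∧
      ∀ X' ⊂ X, ¬ vio g t (lev B j) D (univ \ V) X')) with hP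
  show P ≤ y ^ 27925 * JJ q D b ^ 600
  have h2 : (y ^ 324)⁻¹ * P ≤ (y ^ 23) ^ 1200 * JJ q D b ^ 600 := h1
  have h3 : P = y ^ 324 * ((y ^ 324)⁻¹ * P) := by field_simp
  rw [h3]
  have h4 : y ^ 324 * ((y ^ 324)⁻¹ * P) ≤ y ^ 324 * ((y ^ 23) ^ 1200 * JJ q D b ^ 600) :=
    mul_le_mul_of_nonneg_left h2 (by positivity)
  refine h4.trans ?_
  rw [← mul_assoc, ← pow_mul, ← pow_add]
  refine mul_le_mul_of_nonneg_right ?_ (pow_nonneg hJ0 _)
  exact pow_le_pow_right₀ (by linarith) (by norm_num)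

/-- **the blame of one level** -/
theorem rowFin_of (hL : RowL) (hR : RowR) : RowFin := by
  intro p g n lam B c E _ D hD j b hj
  have hp0 := c.p0
  have hp1 := c.p1
  obtain ⟨hq1, hq2, hq3⟩ := q_bounds c
  set q : ℝ := (1 - p) * (g + n) with hq
  set y : ℝ := (xx B j : ℝ) with hy
  have hy16 : (16 : ℝ) ≤ y := x16 c j
  have hy0 : 0 < y := by linarith
  set t : ℝ := n / (1 - g) with ht
  have hJ0 : 0 ≤ JJ q D b := Th_nn hq3.le (by linarith) _
  by_cases hc : (y ^ 98)⁻¹ ≤ JJ q D b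
  · have h1 : Th p univ (fun V => F.ind (∃ X ⊆ V, b ∈ X ∧ Bad g t B j D (univ \ V) X)) ≤
        Th p univ (fun V => F.ind (∃ X ⊆ V, Bad g t B j D (univ \ V) X)) :=
      Th_mono hp0.le (by linarith) fun V _ => ind_mono fun ⟨X, h1, _, h3⟩ => ⟨X, h1, h3⟩
    refine h1.trans ((hL p g n lam B c E D hD j hj).trans ?_)
    show (y ^ 99)⁻¹ ≤ y⁻¹ * JJ q D b
    have h2 : (y ^ 99)⁻¹ = y⁻¹ * (y ^ 98)⁻¹ := by
      rw [← mul_inv, ← pow_succ']
    rw [h2]
    exact mul_le_mul_of_nonneg_left hc (by positivity)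
  · rw [not_le] at hc
    have h1 : Th p univ (fun V => F.ind (∃ X ⊆ V, b ∈ X ∧ Bad g t B j D (univ \ V) X)) ≤
        Th p univ (fun V => F.ind (∃ X ⊆ V, b ∈ X ∧ vio g t (lev B j) D (univ \ V) X ∧
          ∀ X' ⊂ X, ¬ vio g t (lev B j) D (univ \ V) X')) :=
      Th_mono hp0.le (by linarith) fun V _ => ind_mono
        fun ⟨X, h1, h2, h3⟩ => ⟨X, h1, h2, h3.1, h3.2.1⟩
    refine h1.trans ((hR p g n lam B c E D hD j b).trans ?_)
    show y ^ 27925 * JJ q D b ^ 600 ≤ y⁻¹ * JJ q D b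
    have h2 : JJ q D b ^ 600 = JJ q D b ^ 599 * JJ q D b := pow_succ _ _
    rw [h2, ← mul_assoc]
    refine mul_le_mul_of_nonneg_right ?_ hJ0
    have h3 : JJ q D b ^ 599 ≤ ((y ^ 98)⁻¹) ^ 599 := pow_le_pow_left₀ hJ0 hc.le _
    have h4 : y ^ 27925 * JJ q D b ^ 599 ≤ y ^ 27925 * ((y ^ 98)⁻¹) ^ 599 :=
      mul_le_mul_of_nonneg_left h3 (by positivity)
    refine h4.trans ?_
    rw [inv_pow, ← pow_mul]
    have e : y ^ (98 * 599) = y ^ 27925 * y ^ 30777 := by rw [← pow_add]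
    rw [e, mul_inv, ← mul_assoc, mul_inv_cancel₀ (by positivity), one_mul]
    exact inv_anti₀ hy0 (le_self_pow₀ (by linarith) (by norm_num))

end

end Vale.Agent.P331.H595
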