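import Vale.Agent.P331.H595.Basic
import Vale.Agent.P331.F.Sock

/-!
# Line B: the final theorem from the rows
-/

set_option autoImplicit false
set_option linter.unusedSectionVars false

namespace Vale.Agent.P331.H595

open Finset Vale.Agent.P331 Vale.Agent.P331.H489 Vale.Agent.P331.H250 Vale.Agent.P331.F
  Vale.Agent.P331.H352
open scoped Classical ENNReal

noncomputable section

/-- the sum of the levels -/
theorem sum_levels {p g n lam : ℝ} {B : ℕ} (c : Cst p g n lam B) (m : ℕ) :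
    ∑ j ∈ Icc 1 m, ((xx B j : ℝ))⁻¹ ≤ (1 - p) * (g + n) / 2 := by
  have hB := B16 c
  have hB0 : (0 : ℝ) < B := by linarith
  obtain ⟨hq1, hq2, hq3⟩ := q_bounds c
  have hn0 := c.n0
  have h4n : 4 / n ≤ (B : ℝ) := c.nB
  have h1 : ∀ j ∈ Icc 1 m, ((xx B j : ℝ))⁻¹ ≤ (B : ℝ)⁻¹ * (1 / 2) ^ j := by
    intro j hj
    have hj1 := (mem_Icc.1 hj).1
    have h2 : (B : ℝ) * 2 ^ j ≤ (xx B j : ℝ) := by
      simp only [xx, Nat.cast_pow]
      have h3 : j + 1 ≤ 200 ^ j := by
        have := Nat.lt_pow_self (n := j) (by norm_num : 1 < 200)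
        omega
      have h4 : (B : ℝ) ^ (j + 1) ≤ (B : ℝ) ^ (200 ^ j) :=
        pow_le_pow_right₀ (by linarith) h3
      refine le_trans ?_ h4
      rw [pow_succ, mul_comm]
      exact mul_le_mul_of_nonneg_right (pow_le_pow_left₀ (by norm_num) (by linarith) _) hB0.le
    have h5 : (B : ℝ)⁻¹ * (1 / 2) ^ j = ((B : ℝ) * 2 ^ j)⁻¹ := by
      rw [mul_inv, one_div, inv_pow]
    rw [h5]
    exact inv_anti₀ (by positivity) h2
  have h2 : ∑ j ∈ Icc 1 m, (1 / 2 : ℝ) ^ j ≤ 1 := by
    have h3 : ∀ m : ℕ, ∑ j ∈ Icc 1 m, (1 / 2 : ℝ) ^ j = 1 - (1 / 2) ^ m := by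
      intro m
      induction m with
      | zero => simp
      | succ k ih =>
        rw [Finset.sum_Icc_succ_top (by omega), ih, pow_succ]
        ring
    rw [h3]
    have : (0 : ℝ) ≤ (1 / 2) ^ m := by positivity
    linarith
  refine (sum_le_sum h1).trans ?_
  rw [← mul_sum]
  have h3 : (B : ℝ)⁻¹ * ∑ j ∈ Icc 1 m, (1 / 2 : ℝ) ^ j ≤ (B : ℝ)⁻¹ * 1 :=
    mul_le_mul_of_nonneg_left h2 (by positivity)
  refine h3.trans ?_
  rw [mul_one]
  have h4 : (B : ℝ)⁻¹ ≤ n / 4 := by
    rw [inv_le_comm₀ hB0 (by positivity)]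
    rw [inv_div]
    exact h4n
  linarith

/-- **A10 : the theorem from the rows** -/
theorem rowMain_of (hC : RowCst) (hOk : RowOk) (hBl : RowBl) (hFin : RowFin) (hEnt : RowEnt) :
    RowMain := by
  obtain ⟨p, g, n, lam, B, c⟩ := hC
  have hp0 := c.p0
  have hp1 := c.p1
  obtain ⟨hq1, hq2, hq3⟩ := q_bounds c
  refine main_of_frames hp0 ?_
  intro E _ M hM
  refine ⟨Bool, inferInstance, inferInstance, frame E M p g n B hp0.le (by linarith), ?_,
    fun lt hlt => hOk E M hM p g n lam B hp0.le (by linarith) c lt hlt, ?_⟩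
  · show (if true then p else 1 - p) = p
    simp
  · intro lt hlt b _
    have h1 : ∀ z ∈ univ.erase b, EX (fun _ => (frame E M p g n B hp0.le (by linarith)).w)
        (fun ω : E → Bool => if Blame (frame E M p g n B hp0.le (by linarith)) lt b z ω
          then (1 : ℝ) else 0) ≤
        p * ((1 - p) * (g + n) / 2) * JJ ((1 - p) * (g + n)) (DD M lt z) b := by
      intro z hz
      have hzb : z ≠ b := ne_of_mem_erase hz
      refine (hBl E M hM p g n lam B hp0.le (by linarith) c lt hlt b z hzb).trans ?_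
      have hup : Up (DD M lt z) := by
        intro A A' hA h
        exact M.closure_subset_closure (show {e | lt z e ∧ e ∈ A} ⊆ {e | lt z e ∧ e ∈ A'} from
          fun e he => ⟨he.1, hA he.2⟩) h
      have hJ0 : 0 ≤ JJ ((1 - p) * (g + n)) (DD M lt z) b := Th_nn hq3.le (by linarith) _
      rw [mul_assoc]
      refine mul_le_mul_of_nonneg_left ?_ hp0.le
      have h2 : ∑ j ∈ Icc 1 (Fintype.card E), Th p univ (fun V => F.ind (∃ X ⊆ V, b ∈ X ∧
          Bad g (n / (1 - g)) B j (DD M lt z) (univ \ V) X)) ≤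
          ∑ j ∈ Icc 1 (Fintype.card E),
            ((xx B j : ℝ))⁻¹ * JJ ((1 - p) * (g + n)) (DD M lt z) b :=
        sum_le_sum fun j hj => hFin p g n lam B c E (DD M lt z) hup j b (mem_Icc.1 hj).1
      refine h2.trans ?_
      rw [← sum_mul]
      exact mul_le_mul_of_nonneg_right (sum_levels c _) hJ0
    refine (sum_le_sum h1).trans ?_
    rw [← mul_sum]
    have h3 := hEnt E M hM lt hlt ((1 - p) * (g + n)) hq3 (by linarith) b
    have h4 : p * ((1 - p) * (g + n) / 2) *
        ∑ z ∈ univ.erase b, JJ ((1 - p) * (g + n)) (DD M lt z) b ≤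
        p * ((1 - p) * (g + n) / 2) * (1 / ((1 - p) * (g + n))) :=
      mul_le_mul_of_nonneg_left h3 (by positivity)
    refine h4.trans (le_of_eq ?_)
    have h5 : (1 - p) * (g + n) * (1 / ((1 - p) * (g + n))) = 1 :=
      mul_one_div_cancel hq3.ne'
    have h6 : p * ((1 - p) * (g + n) / 2) * (1 / ((1 - p) * (g + n))) =
        p / 2 * ((1 - p) * (g + n) * (1 / ((1 - p) * (g + n)))) := by ring
    rw [h6, h5, mul_one]

end

end Vale.Agent.P331.H595
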